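import Vale.Agent.P088.R2.H833.V.HcB
import Vale.Agent.P088.R2.H551.V.Spec

/-!
# P088, row V-HC: harmonic coordinates of two tensors, with an estimate of the difference
-/

open MeasureTheory Set Filter
open scoped ContDiff Matrix Topology

noncomputable section

namespace Vale.Agent.P088.PJ.H833

open Vale.Agent.P088.LR Vale.Agent.P088.LR.H27
open Vale.Agent.P088.HY (VV Bs Bn Un DB)

variable {n : ℕ}

/-! ## Affine maps `x ↦ c x + b` -/

lemma aff_fderiv (c : ℝ) (b x : V n) :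
    HasFDerivAt (fun x : V n => c • x + b) (c • ContinuousLinearMap.id ℝ (V n)) x :=
  ((hasFDerivAt_id x).const_smul c).add_const b

lemma aff_smooth (c : ℝ) (b : V n) : ContDiff ℝ ∞ (fun x : V n => c • x + b) :=
  (contDiff_id.const_smul c).add contDiff_const

lemma aff_bound {c D : ℝ} (hD : 1 ≤ D) (hc : |c| ≤ D) (b : V n) (i : ℕ) (hi : 1 ≤ i) (x : V n) :
    ‖iteratedFDeriv ℝ i (fun x : V n => c • x + b) x‖ ≤ D ^ i := by
  obtain ⟨j, rfl⟩ : ∃ j, i = j + 1 := ⟨i - 1, by omega⟩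
  rw [← norm_iteratedFDeriv_fderiv]
  have h2 : fderiv ℝ (fun x : V n => c • x + b) = fun _ => c • ContinuousLinearMap.id ℝ (V n) :=
    funext fun y => (aff_fderiv c b y).fderiv
  rw [h2]
  rcases Nat.eq_zero_or_pos j with rfl | hj
  · rw [norm_iteratedFDeriv_zero, norm_smul, Real.norm_eq_abs, zero_add, pow_one]
    calc |c| * ‖ContinuousLinearMap.id ℝ (V n)‖ ≤ |c| * 1 :=
          mul_le_mul_of_nonneg_left ContinuousLinearMap.norm_id_le (abs_nonneg c)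
      _ ≤ D := by rwa [mul_one]
  · rw [iteratedFDeriv_const_of_ne (by omega)]
    simp only [Pi.zero_apply, norm_zero]
    positivity

lemma pd_aff {F : Type*} [NormedAddCommGroup F] [NormedSpace ℝ F] {g : V n → F}
    (hg : Differentiable ℝ g) (c : ℝ) (b : V n) (j : Fin n) (x : V n) :
    pd j (fun x => g (c • x + b)) x = c • pd j g (c • x + b) := by
  unfold pd
  have h := (hg (c • x + b)).hasFDerivAt.comp x (aff_fderiv c b x)
  rw [show (fun x => g (c • x + b)) = g ∘ fun x => c • x + b from rfl, h.fderiv]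
  simp

lemma cl_aff {F : Type*} [NormedAddCommGroup F] [NormedSpace ℝ F] {k : ℕ} {a c D : ℝ}
    (hD : 1 ≤ D) (hc : |c| ≤ D) (b : V n) {f : V n → F} (hf : ContDiff ℝ ∞ f) (h : Cl k a f) :
    Cl k ((k.factorial : ℝ) * D ^ k * a) (fun x => f (c • x + b)) :=
  Vale.Agent.P088.H833.cl_comp hD hf (aff_smooth c b) h
    fun i hi _ x => aff_bound hD hc b i hi x

lemma cl_smul {F : Type*} [NormedAddCommGroup F] [NormedSpace ℝ F] {k : ℕ} {a c : ℝ}
    (hc : 0 ≤ c) {f : V n → F} (hf : ContDiff ℝ ∞ f) (h : Cl k a f) :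
    Cl k (c * a) (fun x => c • f x) := by
  intro l hl x
  have e : iteratedFDeriv ℝ l (fun x => c • f x) x = c • iteratedFDeriv ℝ l f x :=
    iteratedFDeriv_const_smul_apply ((hf.of_le (by exact_mod_cast le_top)).contDiffAt)
  rw [e, norm_smul, Real.norm_of_nonneg hc]
  exact mul_le_mul_of_nonneg_left (h l hl x) hc

/-! ## Scaling -/

/-- `x ↦ 4 x - 2`. -/
def sa (x : V n) : V n := (4 : ℝ) • x + fun _ => -2

/-- `y ↦ y / 4 + 1 / 2`. -/
def sb (y : V n) : V n := (1 / 4 : ℝ) • y + fun _ => 1 / 2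

lemma sa_sb (y : V n) : sa (sb y) = y := by
  funext j
  simp only [sa, sb, Pi.add_apply, Pi.smul_apply, smul_eq_mul]
  ring

lemma sa_core {x : V n} (hx : x ∉ core n) : 1 < HY.sq (sa x) := by
  simp only [core, Set.mem_ofPred_eq, not_forall] at hx
  obtain ⟨j, hj⟩ := hx
  have h1 : (sa x j) ^ 2 ≤ HY.sq (sa x) :=
    Finset.single_le_sum (f := fun j => sa x j ^ 2) (fun _ _ => sq_nonneg _) (Finset.mem_univ j)
  refine lt_of_lt_of_le ?_ h1
  simp only [sa, Pi.add_apply, Pi.smul_apply, smul_eq_mul]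
  rw [not_and_or, not_le, not_le] at hj
  rcases hj with h | h
  · nlinarith
  · nlinarith

lemma sb_cube {y : V n} (hy : y ∈ Bs n 2) : sb y ∈ cube n := by
  intro j
  have h1 : (y j) ^ 2 ≤ HY.sq y :=
    Finset.single_le_sum (f := fun j => y j ^ 2) (fun _ _ => sq_nonneg _) (Finset.mem_univ j)
  have h2 : HY.sq y < 2 ^ 2 := hy
  have h3 : (y j) ^ 2 < 2 ^ 2 := lt_of_le_of_lt h1 h2
  have h4 := abs_lt_of_sq_lt_sq h3 (by norm_num)
  rw [abs_lt] at h4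
  simp only [sb, Pi.add_apply, Pi.smul_apply, smul_eq_mul]
  constructor <;> linarith [h4.1, h4.2]

lemma dv_scale {s : MF n} (hs : SmM s) {w : V n → V n} (hw : ContDiff ℝ ∞ w) (a : Fin n)
    (y : V n) :
    dv s (fun y => ((y a + ((4 : ℝ) • w (sb y)) a : ℝ) : ℂ)) y =
      (1 / 4 : ℝ) • dv (fun x => s (sa x)) (fun x => ((x a + w x a : ℝ) : ℂ)) (sb y) := by
  set Gf : V n → ℂ := fun x => ((x a + w x a : ℝ) : ℂ) with hG
  have sG : ContDiff ℝ ∞ Gf := Complex.ofRealCLM.contDiff.comp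
    ((contDiff_apply ℝ ℝ a).add (contDiff_pi.1 hw a))
  have e1 : (fun y : V n => ((y a + ((4 : ℝ) • w (sb y)) a : ℝ) : ℂ)) =
      fun y => (4 : ℝ) • Gf (sb y) - 2 := by
    funext y
    rw [hG]
    simp only [sb, Pi.add_apply, Pi.smul_apply, smul_eq_mul, Complex.real_smul]
    push_cast
    ring
  have e2 : ∀ (j : Fin n) (y : V n), pd j (fun y => (4 : ℝ) • Gf (sb y) - 2) y =
      pd j Gf (sb y) := by
    intro j y
    have h1 : DifferentiableAt ℝ (fun y => Gf (sb y)) y :=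
      (sG.comp (aff_smooth (1 / 4) fun _ => 1 / 2)).differentiable (by simp) y
    have h2 : pd j (fun y => (4 : ℝ) • Gf (sb y) - 2) y =
        (4 : ℝ) • pd j (fun y => Gf (sb y)) y := by
      unfold pd
      rw [fderiv_sub_const, fderiv_fun_const_smul h1]
      simp
    rw [h2]
    have h3 := pd_aff (sG.differentiable (by simp)) (1 / 4) (fun _ => 1 / 2) j y
    rw [show (fun y => Gf (sb y)) = fun x => Gf ((1 / 4 : ℝ) • x + fun _ => 1 / 2) from rfl, h3,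
      smul_smul]
    norm_num [sb]
  rw [e1]
  unfold dv
  rw [Finset.smul_sum]
  refine Finset.sum_congr rfl fun i _ => ?_
  set Φ : V n → ℂ := fun x => ∑ j, ((s (sa x) i j : ℝ) : ℂ) * pd j Gf x with hΦ
  have sΦ : ContDiff ℝ ∞ Φ := ContDiff.sum fun j _ =>
    (Complex.ofRealCLM.contDiff.comp ((hs i j).comp (aff_smooth 4 fun _ => -2))).mul
      (G.smooth_pd sG j)
  have e3 : (fun y => ∑ j, ((s y i j : ℝ) : ℂ) * pd j (fun y => (4 : ℝ) • Gf (sb y) - 2) y) =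
      fun y => Φ ((1 / 4 : ℝ) • y + fun _ => 1 / 2) := by
    funext z
    change _ = Φ (sb z)
    rw [hΦ]
    refine Finset.sum_congr rfl fun j _ => ?_
    rw [e2, sa_sb]
  rw [e3, pd_aff (sΦ.differentiable (by simp))]
  rfl

/-- Bounds for `f (4 x - 2)`. -/
lemma exA (n K : ℕ) : ∃ F : ℝ, 0 < F ∧ ∀ f : V n → ℝ, ContDiff ℝ ∞ f → ∀ e, Cl K e f →
    Cl K (F * e) (fun x => f (sa x)) :=
  ⟨(K.factorial : ℝ) * 4 ^ K, by positivity, fun f hf e h =>
    cl_aff (by norm_num) (by norm_num) (fun _ => -2) hf h⟩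

lemma sw {v : V n → V n} (sv : ContDiff ℝ ∞ v) : ContDiff ℝ ∞ (fun y => (4 : ℝ) • v (sb y)) :=
  (sv.comp (aff_smooth (1 / 4) fun _ => 1 / 2)).const_smul (4 : ℝ)

/-- Bounds for `4 v (y / 4 + 1 / 2)`. -/
lemma exB (n K : ℕ) : ∃ F : ℝ, 0 < F ∧ ∀ v : V n → V n, ContDiff ℝ ∞ v → ∀ e, Cl K e v →
    Cl K (F * e) (fun y => (4 : ℝ) • v (sb y)) := by
  refine ⟨4 * ((K.factorial : ℝ) * 1 ^ K), by positivity, fun v sv e hv => ?_⟩
  have hq : |(1 / 4 : ℝ)| ≤ 1 := by rw [abs_of_pos (by norm_num)]; norm_num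
  have h5 := cl_smul (c := 4) (by norm_num) (sv.comp (aff_smooth (1 / 4) fun _ => 1 / 2))
    (cl_aff le_rfl hq (fun _ => 1 / 2) sv hv)
  refine cl_le h5 le_rfl (le_of_eq ?_)
  ring

lemma sm_sa {s : MF n} (hs : SmM s) : SmM (fun x => s (sa x)) := fun i j =>
  (hs i j).comp (aff_smooth 4 fun _ => -2)

/-- **V-HC.** -/
theorem rowHC : RowHC := by
  intro n k hn
  obtain ⟨C, ε, hC, hε, hcube⟩ := cubeHC n k
  obtain ⟨C', εD, -, hεD, hdif⟩ := Vale.Agent.P088.H634.rowDIF n 0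
  obtain ⟨F, hF0, hF⟩ := exA n (k + n + 1)
  obtain ⟨F', hF'0, hF'⟩ := exB n (k + 1)
  obtain ⟨Z, hZ⟩ : ∃ Z : ℝ, Z = F' * (C * F) := ⟨_, rfl⟩
  have hZ0 : 0 < Z := by rw [hZ]; positivity
  refine ⟨k + n + 1, Z, min (ε / F) (εD / Z), hZ0,
    lt_min (div_pos hε hF0) (div_pos hεD hZ0), ?_⟩
  intro s₁ s₂ hs₁ hs₂ _ _ ho₁ ho₂ δ η hδ0 hδ hη0 hc₁ hc₂ hdb
  have hδF : F * δ ≤ ε := by
    have := hδ.trans (min_le_left _ _)
    rwa [le_div_iff₀ hF0, mul_comm] at this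
  have hδZ : Z * δ ≤ εD := by
    have := hδ.trans (min_le_right _ _)
    rwa [le_div_iff₀ hZ0, mul_comm] at this
  obtain ⟨v₁, v₂, sv₁, sv₂, cv₁, cv₂, cvd, z₁, z₂⟩ := hcube (fun x => s₁ (sa x))
    (fun x => s₂ (sa x)) (sm_sa hs₁) (sm_sa hs₂) (fun x hx => ho₁ _ (sa_core hx))
    (fun x hx => ho₂ _ (sa_core hx)) (F * δ) (F * η) (mul_nonneg hF0.le hδ0) hδF
    (mul_nonneg hF0.le hη0)
    (fun i j => hF _ ((hs₁ i j).sub contDiff_const) δ (hc₁ i j))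
    (fun i j => hF _ ((hs₂ i j).sub contDiff_const) δ (hc₂ i j))
    (fun i j => hF _ ((hs₁ i j).sub (hs₂ i j)) η (hdb i j))
  have cw : ∀ {v : V n → V n}, ContDiff ℝ ∞ v → ∀ e, Cl (k + 1) (C * (F * e)) v →
      Cl (k + 1) (Z * e) (fun y => (4 : ℝ) • v (sb y)) := by
    intro v sv e hv
    refine cl_le (hF' v sv _ hv) le_rfl (le_of_eq ?_)
    rw [hZ]
    ring
  have dif : ∀ {v : V n → V n}, ContDiff ℝ ∞ v → Cl (k + 1) (C * (F * δ)) v →
      ∃ K, Dif univ (fun y => (4 : ℝ) • v (sb y)) K := by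
    intro v sv hv
    obtain ⟨K, hK, -⟩ := hdif univ (fun y => (4 : ℝ) • v (sb y)) (sw sv)
      (fun x hx => absurd (mem_univ x) hx) (cl_le (cw sv δ hv) (by omega) hδZ)
    exact ⟨K, hK⟩
  obtain ⟨K₁, hK₁⟩ := dif sv₁ cv₁
  obtain ⟨K₂, hK₂⟩ := dif sv₂ cv₂
  refine ⟨fun y => (4 : ℝ) • v₁ (sb y), fun y => (4 : ℝ) • v₂ (sb y), K₁, K₂, hK₁, hK₂,
    cl_le (cw sv₁ δ cv₁) (Nat.le_succ k) le_rfl, cl_le (cw sv₂ δ cv₂) (Nat.le_succ k) le_rfl,
    ?_, ?_, ?_⟩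
  · have e : (fun x => (4 : ℝ) • v₁ (sb x) - (4 : ℝ) • v₂ (sb x)) =
        fun y => (4 : ℝ) • (fun x => v₁ x - v₂ x) (sb y) := by
      funext y
      rw [smul_sub]
    rw [e]
    exact cl_le (cw (sv₁.sub sv₂) η cvd) (Nat.le_succ k) le_rfl
  · intro a x hx
    rw [dv_scale hs₁ sv₁ a x, z₁ a _ (sb_cube hx), smul_zero]
  · intro a x hx
    rw [dv_scale hs₂ sv₂ a x, z₂ a _ (sb_cube hx), smul_zero]

end Vale.Agent.P088.PJ.H833
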