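import Vale.Agent.P088.H27.CFTor
import Vale.Agent.P088.H27.JArr

/-!
# P088, row V-HC, part A: the torus solutions of two tensors, estimate of the difference
-/

open MeasureTheory Set Filter
open scoped ContDiff Matrix Topology

noncomputable section

namespace Vale.Agent.P088.PJ.H833

open Vale.Agent.P088.LR Vale.Agent.P088.LR.H27

variable {n : ℕ}

/-- From the Neumann equation to the torus solution. -/
lemma tor_of (a1 : RowA1) (a2 : RowA2) (a3 : RowA3) {s : MF n} (hs : SmM s)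
    (h1 : ∀ x ∉ core n, s x = 1) {a : Fin n} {y : Ix n → Fin n → ℂ}
    (hy : ∀ i, RD fun k => y k i)
    (he : ∀ k i, y k i = cf 0 (ent s i a) k - ∑ m, cv (cf 0 (ent s i m)) (G.GG y m) k) :
    Tor s a (G.wh y) y := by
  have h3 : ∀ i j, RD (cf 0 (ent s i j)) ∧ ∀ x ∈ cube n, ent s i j x
      = Es 0 (cf 0 (ent s i j)) x := fun i j => by
    obtain ⟨C, -, h⟩ := a3 n 0
    have h4 := h (ent s i j) (G.smooth_ent hs i j)
      ((G.tsupport_ent (subset_refl _) h1 i j).trans (core_sub_cube n)) 0 (fun j => by simp)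
    exact ⟨h4.1, h4.2.1⟩
  have hG : ∀ m, RD (G.GG y m) := G.rd_GG hy
  have hcv : ∀ i m, RD (cv (cf 0 (ent s i m)) (G.GG y m)) := fun i m =>
    (a2 (0 : V n) 0 _ _ (h3 i m).1 (hG m)).1
  refine ⟨G.rd_wh hy, hy, fun k => by simpa using G.wh_eq y k, fun x hx i => ?_⟩
  have e1 : (fun k => y k i)
      = fun k => cf 0 (ent s i a) k - ∑ m, cv (cf 0 (ent s i m)) (G.GG y m) k :=
    funext fun k => he k i
  have e2 : ∀ m, Es 0 (cv (cf 0 (ent s i m)) (G.GG y m)) x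
      = -(ent s i m x * pd m (Es 0 (G.wh y)) x) := fun m => by
    have h5 := (a2 (0 : V n) 0 _ _ (h3 i m).1 (hG m)).2.2.1 x
    rw [add_zero] at h5
    rw [← h5, ← (h3 i m).2 x hx, G.pd_Es a1 (G.rd_wh hy)]
    have h6 : G.dc m (G.wh y) = fun k => -G.GG y m k := funext fun k => G.dc_wh y m k
    rw [h6, G.Es_neg]
    ring
  rw [e1, G.Es_sub (h3 i a).1 (G.rdSum _ (hcv i)), G.Es_sum _ (hcv i), ← (h3 i a).2 x hx]
  simp_rw [e2]
  simp only [Finset.sum_neg_distrib, sub_neg_eq_add, mul_add, Finset.sum_add_distrib]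
  congr 1
  simp

lemma nm_sub_le {c d : Ix n → ℂ} (hc : RD c) (hd : RD d) (m : ℕ) :
    nm m (fun k => c k - d k) ≤ nm m c + nm m d := by
  have h1 := nm_add_le hc (rd_neg hd) m
  rw [nm_neg] at h1
  simpa only [sub_eq_add_neg] using h1

lemma rd_sub {c d : Ix n → ℂ} (hc : RD c) (hd : RD d) : RD (fun k => c k - d k) := by
  simpa only [sub_eq_add_neg] using rd_add hc (rd_neg hd)

lemma nm_GG_le {y : Ix n → Fin n → ℂ} (hy : ∀ i, RD fun k => y k i) (m : Fin n) (M : ℕ) :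
    nm M (G.GG y m) ≤ ∑ j, nm M fun k => y k j := by
  have h := G.nm_le_of_sum Finset.univ (F := fun j k => y k j) hy (c := G.GG y m) (C := 1)
    (m := M) (m' := M) fun k => by
      rw [one_mul, ← Finset.mul_sum]
      exact mul_le_mul_of_nonneg_left (G.norm_GG_le y m k) (pow_nonneg (G.wt_nonneg k) M)
  simpa using h

/-- The two solutions with an estimate of the difference. -/
theorem torD (a1 : RowA1) (a2 : RowA2) (a3 : RowA3) (neu : RowNEU) (M : ℕ) {s₁ s₂ : MF n}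
    (hs₁ : SmM s₁) (hs₂ : SmM s₂) (h1 : ∀ x ∉ core n, s₁ x = 1) (h2 : ∀ x ∉ core n, s₂ x = 1)
    {δ : ℝ} (hδ0 : 0 ≤ δ) (hδ : n ^ 2 * δ ≤ 1 / 2)
    (hM₁ : ∀ i j, nm M (cf 0 (ent s₁ i j)) ≤ δ)
    (hM₂ : ∀ i j, nm M (cf 0 (ent s₂ i j)) ≤ δ) (a : Fin n) :
    ∃ c₁ c₂ : Ix n → ℂ, RD c₁ ∧ RD c₂ ∧ (∀ x ∈ cube n, dv s₁ (Wf a c₁) x = 0) ∧
      (∀ x ∈ cube n, dv s₂ (Wf a c₂) x = 0) ∧ nm (M + 1) c₂ ≤ (n + 1) * (2 * (n * δ)) ∧
      nm (M + 1) (fun k => c₁ k - c₂ k) ≤ (n + 1) * (4 * ∑ i, ∑ j, nm M (fun k =>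
        cf 0 (ent s₁ i j) k - cf 0 (ent s₂ i j) k)) := by
  have h3 : ∀ {s : MF n}, SmM s → (∀ x ∉ core n, s x = 1) → ∀ i j, RD (cf 0 (ent s i j)) := by
    intro s hs h1 i j
    obtain ⟨C, -, h⟩ := a3 n 0
    exact (h (ent s i j) (G.smooth_ent hs i j)
      ((G.tsupport_ent (subset_refl _) h1 i j).trans (core_sub_cube n)) 0 (fun j => by simp)).1
  have r₁ := h3 hs₁ h1
  have r₂ := h3 hs₂ h2
  obtain ⟨y, hy, hey, hby⟩ := neumannB a2 neu M (fun i j => cf 0 (ent s₂ i j)) r₂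
    (fun i => cf 0 (ent s₂ i a)) (fun i => r₂ i a) δ hδ hM₂
  have hGy : ∀ m, RD (G.GG y m) := G.rd_GG hy
  set d : Fin n → Fin n → Ix n → ℂ := fun i j k => cf 0 (ent s₁ i j) k - cf 0 (ent s₂ i j) k
    with hd
  have rd : ∀ i j, RD (d i j) := fun i j => rd_sub (r₁ i j) (r₂ i j)
  have rcv : ∀ i m, RD (cv (d i m) (G.GG y m)) := fun i m =>
    (a2 (0 : V n) 0 _ _ (rd i m) (hGy m)).1
  obtain ⟨z, hz, hez, hbz⟩ := neumannB a2 neu M (fun i j => cf 0 (ent s₁ i j)) r₁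
    (fun i k => d i a k - ∑ m, cv (d i m) (G.GG y m) k)
    (fun i => rd_sub (rd i a) (G.rdSum _ (rcv i))) δ hδ hM₁
  have hGz : ∀ m, RD (G.GG z m) := G.rd_GG hz
  have hyz : ∀ i, RD fun k => y k i + z k i := fun i => rd_add (hy i) (hz i)
  have hG : ∀ m k, G.GG (fun k i => y k i + z k i) m k = G.GG y m k + G.GG z m k := by
    intro m k
    unfold G.GG
    rw [← Finset.sum_add_distrib]
    exact Finset.sum_congr rfl fun j _ => by ring
  have hwh : ∀ k, G.wh (fun k i => y k i + z k i) k = G.wh y k + G.wh z k := by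
    intro k
    unfold G.wh
    rw [← add_div, ← mul_add, ← Finset.sum_add_distrib]
    congr 2
    exact Finset.sum_congr rfl fun j _ => by ring
  -- the bounds
  have hyb : (∑ i, nm M fun k => y k i) ≤ 2 * (n * δ) := by
    refine (hby M le_rfl).trans (mul_le_mul_of_nonneg_left ?_ (by norm_num))
    calc ∑ i, nm M (cf 0 (ent s₂ i a)) ≤ ∑ _i : Fin n, δ := Finset.sum_le_sum fun i _ => hM₂ i a
      _ = n * δ := by simp
  have hnδ : 2 * (n * δ) ≤ 1 := by
    have h5 : (n : ℝ) ≤ n ^ 2 := by exact_mod_cast Nat.le_self_pow (by norm_num) n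
    nlinarith
  have hGb : ∀ m, nm M (G.GG y m) ≤ 1 := fun m => (nm_GG_le hy m M).trans (hyb.trans hnδ)
  have hE0 : ∀ i j, 0 ≤ nm M (d i j) := fun i j => G.nm_nonneg _ _
  have hbb : ∀ i, nm M (fun k => d i a k - ∑ m, cv (d i m) (G.GG y m) k) ≤
      2 * ∑ j, nm M (d i j) := by
    intro i
    have e1 := nm_sub_le (rd i a) (G.rdSum Finset.univ (rcv i)) M
    have e2 := nm_sum_le Finset.univ (rcv i) M
    have e3 : ∑ m, nm M (cv (d i m) (G.GG y m)) ≤ ∑ m, nm M (d i m) := by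
      refine Finset.sum_le_sum fun m _ => ?_
      refine ((a2 (0 : V n) 0 _ _ (rd i m) (hGy m)).2.2.2 M).trans ?_
      exact mul_le_of_le_one_right (hE0 i m) (hGb m)
    have e4 : nm M (d i a) ≤ ∑ j, nm M (d i j) :=
      Finset.single_le_sum (f := fun j => nm M (d i j)) (fun j _ => hE0 i j) (Finset.mem_univ a)
    linarith
  have hzb : (∑ i, nm M fun k => z k i) ≤ 4 * ∑ i, ∑ j, nm M (d i j) := by
    refine (hbz M le_rfl).trans ?_
    have := Finset.sum_le_sum fun i (_ : i ∈ Finset.univ) => hbb i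
    rw [← Finset.mul_sum] at this
    linarith
  refine ⟨G.wh (fun k i => y k i + z k i), G.wh y, G.rd_wh hyz, G.rd_wh hy, fun x hx =>
    dv_Wf a1 (tor_of a1 a2 a3 hs₁ h1 hyz fun k i => ?_) hx, fun x hx =>
    dv_Wf a1 (tor_of a1 a2 a3 hs₂ h2 hy hey) hx, ?_, ?_⟩
  · -- the equation of the sum
    have s1 : ∀ m, Summable fun l => cf 0 (ent s₁ i m) (k - l) * G.GG y m l := fun m =>
      (a2 (0 : V n) 0 _ _ (r₁ i m) (hGy m)).2.1 k
    have s2 : ∀ m, Summable fun l => cf 0 (ent s₁ i m) (k - l) * G.GG z m l := fun m =>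
      (a2 (0 : V n) 0 _ _ (r₁ i m) (hGz m)).2.1 k
    have s3 : ∀ m, Summable fun l => cf 0 (ent s₂ i m) (k - l) * G.GG y m l := fun m =>
      (a2 (0 : V n) 0 _ _ (r₂ i m) (hGy m)).2.1 k
    have c1 : ∀ m, cv (cf 0 (ent s₁ i m)) (G.GG (fun k i => y k i + z k i) m) k =
        cv (cf 0 (ent s₁ i m)) (G.GG y m) k + cv (cf 0 (ent s₁ i m)) (G.GG z m) k := by
      intro m
      unfold cv
      rw [← (s1 m).tsum_add (s2 m)]
      exact tsum_congr fun l => by rw [hG]; ring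
    have c2 : ∀ m, cv (d i m) (G.GG y m) k =
        cv (cf 0 (ent s₁ i m)) (G.GG y m) k - cv (cf 0 (ent s₂ i m)) (G.GG y m) k := by
      intro m
      unfold cv
      rw [← (s1 m).tsum_sub (s3 m)]
      exact tsum_congr fun l => by rw [hd]; ring
    change y k i + z k i = _
    rw [hey k i, hez k i]
    simp only [c1, c2, Finset.sum_add_distrib, Finset.sum_sub_distrib]
    rw [show d i a k = cf 0 (ent s₁ i a) k - cf 0 (ent s₂ i a) k from rfl]
    ring
  · exact (G.nm_wh_le hy M).trans (mul_le_mul_of_nonneg_left hyb (by positivity))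
  · have e : (fun k => G.wh (fun k i => y k i + z k i) k - G.wh y k) = G.wh z := by
      funext k
      rw [hwh]
      ring
    rw [e]
    exact (G.nm_wh_le hz M).trans (mul_le_mul_of_nonneg_left hzb (by positivity))

end Vale.Agent.P088.PJ.H833
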