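import Vale.Agent.P088.R2.H833.V.HcA
import Vale.Agent.P088.H501.A12
import Vale.Agent.P088.H776.A3
import Vale.Agent.P088.H102.Neu
import Vale.Agent.P088.H833.Phi

/-!
# P088, row V-HC, part B: harmonic coordinates of two tensors on the unit cube
-/

open MeasureTheory Set Filter
open scoped ContDiff Matrix Topology

noncomputable section

namespace Vale.Agent.P088.PJ.H833

open Vale.Agent.P088.LR Vale.Agent.P088.LR.H27

variable {n : ℕ}

lemma cl_le {F : Type*} [NormedAddCommGroup F] [NormedSpace ℝ F] {k l : ℕ} {a b : ℝ}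
    {f : V n → F} (h : Cl k a f) (hl : l ≤ k) (hab : a ≤ b) : Cl l b f :=
  fun m hm x => (h m (hm.trans hl) x).trans hab

lemma cl_ofReal {f : V n → ℝ} (hf : ContDiff ℝ ∞ f) {k : ℕ} {b : ℝ} (h : Cl k b f) :
    Cl k b (fun x => ((f x : ℝ) : ℂ)) := by
  intro l hl x
  have h1 : ‖iteratedFDeriv ℝ l (Complex.ofRealLI ∘ f) x‖ = ‖iteratedFDeriv ℝ l f x‖ :=
    Complex.ofRealLI.norm_iteratedFDeriv_comp_left (n := ∞) hf.contDiffAt
      (by exact_mod_cast le_top)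
  have h2 : (fun x => ((f x : ℝ) : ℂ)) = Complex.ofRealLI ∘ f := rfl
  rw [h2, h1]
  exact h l hl x

lemma int_ft {f : V n → ℂ} (hf : Continuous f) (h0 : ∀ x ∉ core n, f x = 0) (ξ : V n) :
    Integrable fun x => f x * ex (-ξ) x := by
  have hc : Continuous fun x => f x * ex (-ξ) x := by
    unfold ex
    fun_prop
  refine hc.integrable_of_hasCompactSupport ?_
  refine HasCompactSupport.intro (compact_core n) fun x hx => ?_
  rw [h0 x hx, zero_mul]

lemma cf_sub {f g : V n → ℂ} (hf : Continuous f) (h0 : ∀ x ∉ core n, f x = 0)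
    (hg : Continuous g) (h1 : ∀ x ∉ core n, g x = 0) (k : Ix n) :
    cf 0 f k - cf 0 g k = cf 0 (fun x => f x - g x) k := by
  unfold cf ft
  rw [← integral_sub (int_ft hf h0 _) (int_ft hg h1 _)]
  simp only [sub_mul]

/-- The displacement with the coefficients `c`. -/
def wr (c : Fin n → Ix n → ℂ) (x : V n) : V n := fun a => (Es 0 (c a) x).re

lemma wr_smooth {c : Fin n → Ix n → ℂ} (hc : ∀ a, RD (c a)) : ContDiff ℝ ∞ (wr c) :=
  contDiff_pi.2 fun a => Complex.reCLM.contDiff.comp (G.smooth_Es H501.rowA1 (hc a))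

lemma wr_cl {c : Fin n → Ix n → ℂ} (hc : ∀ a, RD (c a)) {m : ℕ} {B : ℝ} (hB0 : 0 ≤ B)
    (hB : ∀ a, nm m (c a) ≤ B) : Cl m ((2 * Real.pi) ^ m * B) (wr c) := by
  intro l hl x
  have hpi : (1 : ℝ) ≤ 2 * Real.pi := by linarith [Real.pi_gt_three]
  refine G.norm_iter_pi (by positivity)
    ((wr_smooth hc).contDiffAt.of_le (by exact_mod_cast le_top)) fun a => ?_
  refine (norm_iter_re_le (G.smooth_Es H501.rowA1 (hc a)) l x).trans
    ((G.norm_iter_Es H501.rowA1 l (hc a) x).trans ?_)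
  exact mul_le_mul (pow_le_pow_right₀ hpi hl) ((G.nm_mono _ (hc a) hl).trans (hB a))
    (G.nm_nonneg _ _) (by positivity)

lemma wr_sub {c d : Fin n → Ix n → ℂ} (hc : ∀ a, RD (c a)) (hd : ∀ a, RD (d a)) (x : V n) :
    wr c x - wr d x = wr (fun a k => c a k - d a k) x := by
  funext a
  change (Es 0 (c a) x).re - (Es 0 (d a) x).re = (Es 0 (fun k => c a k - d a k) x).re
  rw [G.Es_sub (hc a) (hd a), Complex.sub_re]

lemma wr_dv {s : MF n} (hs : SmM s) {c : Fin n → Ix n → ℂ} (hc : ∀ a, RD (c a)) {a : Fin n}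
    {x : V n} (h : dv s (Wf a (c a)) x = 0) :
    dv s (fun y => ((y a + wr c y a : ℝ) : ℂ)) x = 0 := by
  have h1 : (fun y : V n => ((y a + wr c y a : ℝ) : ℂ)) =
      fun y => (((Wf a (c a) y).re : ℝ) : ℂ) := by
    funext y
    unfold Wf wr
    rw [Complex.add_re, Complex.ofReal_re]
  rw [h1, dv_re hs (Wf_smooth H501.rowA1 a (hc a)), h, Complex.zero_re, Complex.ofReal_zero]

/-- Harmonic coordinates of two tensors on the unit cube. -/
theorem cubeHC (n M : ℕ) : ∃ C ε₀ : ℝ, 0 < C ∧ 0 < ε₀ ∧ ∀ s₁ s₂ : MF n, SmM s₁ → SmM s₂ →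
    (∀ x ∉ core n, s₁ x = 1) → (∀ x ∉ core n, s₂ x = 1) → ∀ δ η : ℝ, 0 ≤ δ → δ ≤ ε₀ → 0 ≤ η →
    (∀ i j, Cl (M + n + 1) δ (fun x => s₁ x i j - (1 : Matrix (Fin n) (Fin n) ℝ) i j)) →
    (∀ i j, Cl (M + n + 1) δ (fun x => s₂ x i j - (1 : Matrix (Fin n) (Fin n) ℝ) i j)) →
    (∀ i j, Cl (M + n + 1) η (fun x => s₁ x i j - s₂ x i j)) →
    ∃ w₁ w₂ : V n → V n, ContDiff ℝ ∞ w₁ ∧ ContDiff ℝ ∞ w₂ ∧ Cl (M + 1) (C * δ) w₁ ∧
      Cl (M + 1) (C * δ) w₂ ∧ Cl (M + 1) (C * η) (fun x => w₁ x - w₂ x) ∧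
      (∀ a, ∀ x ∈ cube n, dv s₁ (fun y => ((y a + w₁ y a : ℝ) : ℂ)) x = 0) ∧
      ∀ a, ∀ x ∈ cube n, dv s₂ (fun y => ((y a + w₂ y a : ℝ) : ℂ)) x = 0 := by
  have a1 : RowA1 := H501.rowA1
  have a2 : RowA2 := H501.rowA2
  have a3 : RowA3 := H776.rowA3
  obtain ⟨A, hA, hA3⟩ := a3 n M
  set P : ℝ := (2 * Real.pi) ^ (M + 1) with hP
  have hP0 : 0 < P := by positivity
  refine ⟨P * ((n + 1) * (A * (2 * n + 8 * n ^ 2 + 1))), 1 / (2 * ((n ^ 2 + 1) * A)),
    by positivity, by positivity, ?_⟩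
  intro s₁ s₂ hs₁ hs₂ h1 h2 δ η hδ0 hδ hη0 hc₁ hc₂ hc
  have hδ' : (n : ℝ) ^ 2 * (A * δ) ≤ 1 / 2 := by
    rw [le_div_iff₀ (by positivity)] at hδ
    have : 0 ≤ A * δ := by positivity
    nlinarith
  have hent : ∀ {s : MF n}, SmM s → (∀ x ∉ core n, s x = 1) → (∀ i j, Cl (M + n + 1) δ
      (fun x => s x i j - (1 : Matrix (Fin n) (Fin n) ℝ) i j)) → ∀ i j,
      nm M (cf 0 (ent s i j)) ≤ A * δ := by
    intro s hs h1 hc i j
    exact (hA3 (ent s i j) (G.smooth_ent hs i j)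
      ((G.tsupport_ent (subset_refl _) h1 i j).trans (core_sub_cube n)) 0
      (fun j => by simp)).2.2 δ (cl_ofReal ((hs i j).sub contDiff_const) (hc i j))
  have hM₁ := hent hs₁ h1 hc₁
  have hM₂ := hent hs₂ h2 hc₂
  -- the difference
  have hdc : ∀ i j, (fun k => cf 0 (ent s₁ i j) k - cf 0 (ent s₂ i j) k) =
      cf 0 (fun x => ent s₁ i j x - ent s₂ i j x) := fun i j => funext fun k =>
    cf_sub (G.smooth_ent hs₁ i j).continuous (fun x hx => ent_off (h1 x hx) i j)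
      (G.smooth_ent hs₂ i j).continuous (fun x hx => ent_off (h2 x hx) i j) k
  have hdE : ∀ E : ℝ, (∀ i j, Cl (M + n + 1) E (fun x => s₁ x i j - s₂ x i j)) →
      (∑ i, ∑ j, nm M (fun k => cf 0 (ent s₁ i j) k - cf 0 (ent s₂ i j) k)) ≤
        n ^ 2 * (A * E) := by
    intro E hE
    calc (∑ i, ∑ j, nm M (fun k => cf 0 (ent s₁ i j) k - cf 0 (ent s₂ i j) k))
        ≤ ∑ _i : Fin n, ∑ _j : Fin n, A * E := by
          refine Finset.sum_le_sum fun i _ => Finset.sum_le_sum fun j _ => ?_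
          rw [hdc i j]
          have e1 : (fun x => ent s₁ i j x - ent s₂ i j x) =
              fun x => ((s₁ x i j - s₂ x i j : ℝ) : ℂ) := by
            funext x
            unfold ent
            push_cast
            ring
          have e2 : ContDiff ℝ ∞ (fun x => ent s₁ i j x - ent s₂ i j x) :=
            (G.smooth_ent hs₁ i j).sub (G.smooth_ent hs₂ i j)
          have e3 : tsupport (fun x => ent s₁ i j x - ent s₂ i j x) ⊆ cube n := by
            refine (closure_minimal (fun x hx => ?_) (G.isClosed_core n)).trans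
              (core_sub_cube n)
            by_contra hxc
            refine hx ?_
            change ent s₁ i j x - ent s₂ i j x = 0
            rw [ent_off (h1 x hxc) i j, ent_off (h2 x hxc) i j, sub_zero]
          refine (hA3 _ e2 e3 0 (fun j => by simp)).2.2 E ?_
          rw [e1]
          exact cl_ofReal ((hs₁ i j).sub (hs₂ i j)) (hE i j)
      _ = n ^ 2 * (A * E) := by simp; ring
  have hd2 : ∀ i j, Cl (M + n + 1) (2 * δ) (fun x => s₁ x i j - s₂ x i j) := by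
    intro i j
    have e := Vale.Agent.P088.H833.cl_sub (f := fun x => s₁ x i j - (1 : Matrix (Fin n) (Fin n) ℝ) i j)
      (g := fun x => s₂ x i j - (1 : Matrix (Fin n) (Fin n) ℝ) i j)
      ((hs₁ i j).sub contDiff_const) ((hs₂ i j).sub contDiff_const) (hc₁ i j) (hc₂ i j)
    have e1 : (fun x => s₁ x i j - (1 : Matrix (Fin n) (Fin n) ℝ) i j -
        (s₂ x i j - (1 : Matrix (Fin n) (Fin n) ℝ) i j)) = fun x => s₁ x i j - s₂ x i j := by
      funext x
      ring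
    rw [e1] at e
    exact cl_le e le_rfl (by linarith)
  have hE1 := hdE η hc
  have hE2 := hdE (2 * δ) hd2
  choose c₁ c₂ r₁ r₂ z₁ z₂ b₂ bd using fun a => torD a1 a2 a3 H102.neu M hs₁ hs₂ h1 h2
    (by positivity) hδ' hM₁ hM₂ a
  have rdd : ∀ a, RD (fun k => c₁ a k - c₂ a k) := fun a => rd_sub (r₁ a) (r₂ a)
  have hn0 : (0 : ℝ) ≤ n := Nat.cast_nonneg n
  have b2' : ∀ a, nm (M + 1) (c₂ a) ≤ (n + 1) * (A * (2 * n + 8 * n ^ 2 + 1)) * δ := by
    intro a
    refine (b₂ a).trans ?_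
    have h5 : (n + 1) * (A * (2 * n + 8 * n ^ 2 + 1)) * δ - (n + 1) * (2 * (n * (A * δ))) =
      (n + 1) * (A * (8 * n ^ 2 + 1) * δ) := by ring
    have h6 : 0 ≤ (n + 1) * (A * (8 * (n : ℝ) ^ 2 + 1) * δ) := by positivity
    linarith
  have b1' : ∀ a, nm (M + 1) (c₁ a) ≤ (n + 1) * (A * (2 * n + 8 * n ^ 2 + 1)) * δ := by
    intro a
    have h4 : nm (M + 1) (c₁ a) ≤ nm (M + 1) (c₂ a) +
        nm (M + 1) (fun k => c₁ a k - c₂ a k) := by
      have e := nm_add_le (r₂ a) (rdd a) (M + 1)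
      have e' : (fun k => c₂ a k + (c₁ a k - c₂ a k)) = c₁ a := by
        funext k
        ring
      rwa [e'] at e
    have h5 : nm (M + 1) (fun k => c₁ a k - c₂ a k) ≤ (n + 1) * (4 * (n ^ 2 * (A * (2 * δ)))) :=
      (bd a).trans (by gcongr)
    have h6 := b₂ a
    have h7 : (n + 1) * (A * (2 * n + 8 * n ^ 2 + 1)) * δ - ((n + 1) * (2 * (n * (A * δ))) +
      (n + 1) * (4 * (n ^ 2 * (A * (2 * δ))))) = (n + 1) * (A * δ) := by ring
    have h8 : 0 ≤ ((n : ℝ) + 1) * (A * δ) := by positivity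
    linarith
  have bd' : ∀ a, nm (M + 1) (fun k => c₁ a k - c₂ a k) ≤
      (n + 1) * (A * (2 * n + 8 * n ^ 2 + 1)) * η := by
    intro a
    have h5 : nm (M + 1) (fun k => c₁ a k - c₂ a k) ≤ (n + 1) * (4 * (n ^ 2 * (A * η))) :=
      (bd a).trans (by gcongr)
    have h7 : (n + 1) * (A * (2 * n + 8 * n ^ 2 + 1)) * η - (n + 1) * (4 * (n ^ 2 * (A * η))) =
      (n + 1) * (A * (2 * n + 4 * n ^ 2 + 1) * η) := by ring
    have h8 : 0 ≤ ((n : ℝ) + 1) * (A * (2 * n + 4 * n ^ 2 + 1) * η) := by positivity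
    linarith
  have hcc : ∀ e : ℝ, P * ((n + 1) * (A * (2 * n + 8 * n ^ 2 + 1)) * e) =
      P * ((n + 1) * (A * (2 * n + 8 * n ^ 2 + 1))) * e := fun e => by ring
  refine ⟨wr c₁, wr c₂, wr_smooth r₁, wr_smooth r₂, ?_, ?_, ?_,
    fun a x hx => wr_dv hs₁ r₁ (z₁ a x hx), fun a x hx => wr_dv hs₂ r₂ (z₂ a x hx)⟩
  · rw [← hcc]
    exact wr_cl r₁ (by positivity) b1'
  · rw [← hcc]
    exact wr_cl r₂ (by positivity) b2'
  · have e : (fun x => wr c₁ x - wr c₂ x) = wr fun a k => c₁ a k - c₂ a k :=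
      funext fun x => wr_sub r₁ r₂ x
    rw [e, ← hcc]
    exact wr_cl rdd (by positivity) bd'

end Vale.Agent.P088.PJ.H833
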